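import Vale.Agent.P032.Words.Engine

/-!
# Words on a circle: marks

A mark is a point of the circle with exactly two letters `a`, `b`, `a` on the left side and `b` on the
right side.
-/

namespace Vale.Agent.P032.Words

open Set Filter Topology

variable {Λ : Type}

/-- A clean transition from the letter `a` to the letter `b` at `V`. -/
structure Mark (X : Λ → Set ℝ) (a b : Λ) (V : ℝ) : Prop where
  mem_a : V ∈ X a
  mem_b : V ∈ X b
  only : ∀ l, V ∈ X l → l = a ∨ l = b
  left : ∀ᶠ u in 𝓝[<] V, u ∉ X b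
  right : ∀ᶠ u in 𝓝[>] V, u ∉ X a

theorem tendsto_add_left (u c : ℝ) : Tendsto (fun v : ℝ => v + c) (𝓝[<] u) (𝓝[<] (u + c)) := by
  refine tendsto_nhdsWithin_of_tendsto_nhds_of_eventually_within _ ?_ ?_
  · have : Continuous fun v : ℝ => v + c := by fun_prop
    exact (this.tendsto u).mono_left nhdsWithin_le_nhds
  · filter_upwards [self_mem_nhdsWithin] with v hv
    exact add_lt_add_left hv c

theorem tendsto_add_right (u c : ℝ) : Tendsto (fun v : ℝ => v + c) (𝓝[>] u) (𝓝[>] (u + c)) := by
  refine tendsto_nhdsWithin_of_tendsto_nhds_of_eventually_within _ ?_ ?_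
  · have : Continuous fun v : ℝ => v + c := by fun_prop
    exact (this.tendsto u).mono_left nhdsWithin_le_nhds
  · filter_upwards [self_mem_nhdsWithin] with v hv
    exact add_lt_add_left hv c

variable [Nonempty Λ] {X : Λ → Set ℝ} {Leg : (Fin 6 → Λ) → Prop}
  {free : Λ → Λ → Prop} {cmp : (Fin 6 → Λ) → ℕ}

omit [Nonempty Λ] in
theorem Word.mem_add (w : Word X Leg) (u : ℝ) (k : Fin 6) (l : Λ) :
    u + 1 + (k.val : ℝ) ∈ X l ↔ u + ((k + 1).val : ℝ) ∈ X l := by
  by_cases hk : k = 5
  · subst hk
    have h1 : ((5 : Fin 6) + 1).val = 0 := rfl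
    have h2 : (5 : Fin 6).val = 5 := rfl
    rw [h1, h2]
    have : u + 1 + ((5 : ℕ) : ℝ) = (u + ((0 : ℕ) : ℝ)) + 6 := by push_cast; ring
    rw [this, w.per]
  · have h1 : (k + 1).val = k.val + 1 := by
      have : k.val ≠ 5 := fun h => hk (Fin.ext h)
      have h6 := k.isLt
      rw [Fin.val_add_one_of_lt]
      rw [Fin.lt_def]
      show k.val < 5
      omega
    rw [h1]
    have : u + 1 + (k.val : ℝ) = u + ((k.val + 1 : ℕ) : ℝ) := by push_cast; ring
    rw [this]

/-- The values of `cmp` on the two sides of a point with marks. -/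
theorem Word.jump [Finite Λ] (w : Word X Leg)
    (hstep : ∀ h k l, Leg h → Leg (Function.update h k l) → free (h k) l →
      cmp (Function.update h k l) = cmp h)
    (hrefl : ∀ x, free x x)
    {u : ℝ} (M : Finset (Fin 6)) (a b : Fin 6 → Λ)
    (hM : ∀ k ∈ M, Mark X (a k) (b k) (u + (k.val : ℝ)))
    (hN : ∀ k ∉ M, ∀ x y, u + (k.val : ℝ) ∈ X x → u + (k.val : ℝ) ∈ X y → free x y) :
    ∃ h : Finset (Fin 6) → (Fin 6 → Λ), (∀ S, Leg (h S)) ∧
      (∀ S, ∀ k ∈ M, k ∉ S → h S k = a k ∧ h (insert k S) = Function.update (h S) k (b k)) ∧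
      (∀ᶠ v in 𝓝[<] u, cmp (st X v) = cmp (h ∅)) ∧
      (∀ᶠ v in 𝓝[>] u, cmp (st X v) = cmp (h M)) ∧
      (∀ᶠ v in 𝓝[<] (u + 1), cmp (st X v) = cmp (rot (h ∅))) := by
  classical
  set h : Finset (Fin 6) → (Fin 6 → Λ) := fun S k =>
    if k ∈ M then (if k ∈ S then b k else a k) else st X u k with hh
  have hav : ∀ S k, u + (k.val : ℝ) ∈ X (h S k) := by
    intro S k
    simp only [hh]
    split_ifs with h1 h2
    · exact (hM k h1).mem_b
    · exact (hM k h1).mem_a
    · exact w.st_mem u k
  -- left and right palettes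
  set Pm : Fin 6 → Set Λ := fun k => if k ∈ M then {a k} else {l | u + (k.val : ℝ) ∈ X l} with hPm
  set Pp : Fin 6 → Set Λ := fun k => if k ∈ M then {b k} else {l | u + (k.val : ℝ) ∈ X l} with hPp
  have hPmX : ∀ k, ∀ l ∈ Pm k, u + (k.val : ℝ) ∈ X l := by
    intro k l hl
    simp only [hPm] at hl
    split_ifs at hl with h1
    · rw [mem_singleton_iff] at hl; rw [hl]; exact (hM k h1).mem_a
    · exact hl
  have hPpX : ∀ k, ∀ l ∈ Pp k, u + (k.val : ℝ) ∈ X l := by
    intro k l hl
    simp only [hPp] at hl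
    split_ifs at hl with h1
    · rw [mem_singleton_iff] at hl; rw [hl]; exact (hM k h1).mem_b
    · exact hl
  have hPmf : ∀ k, ∀ x ∈ Pm k, ∀ y ∈ Pm k, free x y := by
    intro k x hx y hy
    simp only [hPm] at hx hy
    split_ifs at hx hy with h1
    · rw [mem_singleton_iff] at hx hy; rw [hx, hy]; exact hrefl _
    · exact hN k h1 x y hx hy
  have hPpf : ∀ k, ∀ x ∈ Pp k, ∀ y ∈ Pp k, free x y := by
    intro k x hx y hy
    simp only [hPp] at hx hy
    split_ifs at hx hy with h1
    · rw [mem_singleton_iff] at hx hy; rw [hx, hy]; exact hrefl _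
    · exact hN k h1 x y hx hy
  have hleft : ∀ᶠ v in 𝓝[<] u, ∀ k, st X v k ∈ Pm k := by
    rw [eventually_all]
    intro k
    have h0 := (w.near u).filter_mono (nhdsWithin_le_nhds (s := Iio u))
    by_cases h1 : k ∈ M
    · have h2 := (tendsto_add_left u (k.val : ℝ)).eventually (hM k h1).left
      filter_upwards [h0, h2] with v hv hv2
      simp only [hPm, if_pos h1, mem_singleton_iff]
      rcases (hM k h1).only _ (hv k _ (w.st_mem v k)) with h3 | h3
      · exact h3
      · exact absurd (h3 ▸ w.st_mem v k) hv2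
    · filter_upwards [h0] with v hv
      simp only [hPm, if_neg h1]
      exact hv k _ (w.st_mem v k)
  have hright : ∀ᶠ v in 𝓝[>] u, ∀ k, st X v k ∈ Pp k := by
    rw [eventually_all]
    intro k
    have h0 := (w.near u).filter_mono (nhdsWithin_le_nhds (s := Ioi u))
    by_cases h1 : k ∈ M
    · have h2 := (tendsto_add_right u (k.val : ℝ)).eventually (hM k h1).right
      filter_upwards [h0, h2] with v hv hv2
      simp only [hPp, if_pos h1, mem_singleton_iff]
      rcases (hM k h1).only _ (hv k _ (w.st_mem v k)) with h3 | h3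
      · exact absurd (h3 ▸ w.st_mem v k) hv2
      · exact h3
    · filter_upwards [h0] with v hv
      simp only [hPp, if_neg h1]
      exact hv k _ (w.st_mem v k)
  have hm0 : ∀ k, h ∅ k ∈ Pm k := by
    intro k
    simp only [hh, hPm]
    split_ifs with h1 h2
    · exact absurd h2 (Finset.notMem_empty k)
    · exact mem_singleton _
    · exact w.st_mem u k
  refine ⟨h, fun S => w.leg u _ (hav S), ?_, ?_, ?_, ?_⟩
  · intro S k hk hkS
    refine ⟨by simp only [hh]; rw [if_pos hk, if_neg hkS], ?_⟩
    funext j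
    by_cases hj : j = k
    · subst hj
      rw [Function.update_self]
      simp only [hh]
      rw [if_pos hk, if_pos (Finset.mem_insert_self j S)]
    · rw [Function.update_of_ne hj]
      simp only [hh]
      by_cases hjM : j ∈ M
      · rw [if_pos hjM, if_pos hjM]
        by_cases hjS : j ∈ S
        · rw [if_pos hjS, if_pos (Finset.mem_insert_of_mem hjS)]
        · rw [if_neg hjS, if_neg]
          rw [Finset.mem_insert]
          exact not_or.mpr ⟨hj, hjS⟩
      · rw [if_neg hjM, if_neg hjM]
  · exact w.ev hstep hPmX hleft hPmf hm0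
  · refine w.ev hstep hPpX hright hPpf ?_
    intro k
    simp only [hh, hPp]
    split_ifs with h1
    · exact mem_singleton _
    · exact w.st_mem u k
  · have h1 : ∀ᶠ v in 𝓝[<] (u + 1), ∀ k, st X (v - 1) k ∈ Pm k := by
      have := tendsto_add_left (u + 1) (-1)
      have e : u + 1 + -1 = u := by ring
      rw [e] at this
      have h2 := this.eventually hleft
      filter_upwards [h2] with v hv
      exact hv
    filter_upwards [h1] with v hv
    have e : st X v = rot (st X (v - 1)) := by
      rw [← w.st_add_one]; congr 1; ring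
    rw [e]
    refine sel_eq (P := fun k => Pm (k + 1)) hstep ?_ ?_ ?_ ?_
    · intro g hg
      refine w.leg (u + 1) g fun k => ?_
      rw [w.mem_add]
      exact hPmX _ _ (hg k)
    · intro k
      exact hPmf (k + 1)
    · intro k
      exact hv (k + 1)
    · intro k
      exact hm0 (k + 1)

end Vale.Agent.P032.Words
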