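import Mathlib

/-!
# Words on a circle: the engine

Angles are measured in units of 60 degrees, so a circle is `ℝ` modulo `6`.  A word on the circle is a
family `X : Λ → Set ℝ` of closed sets of period `6` which cover the line (`u ∈ X l` : the letter `l` is
available at `u`).  For every `u` the six positions `u, u + 1, .., u + 5` carry letters; a function
`h : Fin 6 → Λ` is a hexagon.  `Leg` is the set of legal hexagons; all selections from the six palettes
at `u` are assumed to be legal.  `cmp` is a function on hexagons which is invariant under legal changes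
of one letter `a` to `b` with `free a b`.  Then `cmp` of the hexagon at `u` is locally constant away from
points with a non-free pair of letters.
-/

namespace Vale.Agent.P032.Words

open Set Filter Topology

variable {Λ : Type}

/-- Two selections from pairwise free palettes have the same value of `cmp`. -/
theorem sel_eq {Leg : (Fin 6 → Λ) → Prop} {free : Λ → Λ → Prop} {cmp : (Fin 6 → Λ) → ℕ}
    (hstep : ∀ h k l, Leg h → Leg (Function.update h k l) → free (h k) l →
      cmp (Function.update h k l) = cmp h)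
    {P : Fin 6 → Set Λ} (hP : ∀ h, (∀ k, h k ∈ P k) → Leg h)
    (hfree : ∀ k, ∀ a ∈ P k, ∀ b ∈ P k, free a b)
    {h h' : Fin 6 → Λ} (hh : ∀ k, h k ∈ P k) (hh' : ∀ k, h' k ∈ P k) : cmp h = cmp h' := by
  classical
  have key : ∀ j : ℕ, j ≤ 6 → cmp (fun k => if k.val < j then h' k else h k) = cmp h := by
    intro j
    induction j with
    | zero => intro _; simp
    | succ j ih =>
      intro hj
      have hj6 : j < 6 := hj
      have e : (fun k : Fin 6 => if k.val < j + 1 then h' k else h k)
          = Function.update (fun k : Fin 6 => if k.val < j then h' k else h k) ⟨j, hj6⟩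
            (h' ⟨j, hj6⟩) := by
        funext k
        by_cases hk : k = ⟨j, hj6⟩
        · subst hk; simp
        · have : k.val ≠ j := fun h => hk (Fin.ext h)
          rw [Function.update_of_ne hk]
          by_cases h1 : k.val < j
          · simp [h1, Nat.lt_succ_of_lt h1]
          · have h2 : ¬ k.val < j + 1 := by omega
            simp [h1, h2]
      have hsel : ∀ m : ℕ, ∀ k : Fin 6, (if k.val < m then h' k else h k) ∈ P k := by
        intro m k
        split_ifs
        · exact hh' k
        · exact hh k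
      rw [e, hstep _ _ _ (hP _ (hsel j)) (by rw [← e]; exact hP _ (hsel (j + 1))) ?_, ih (by omega)]
      simp only [lt_irrefl, if_false]
      exact hfree _ _ (hh _) _ (hh' _)
  have := key 6 le_rfl
  rw [← this]
  congr 1
  funext k
  simp [k.isLt]

/-- A word on the circle of length `6`. -/
structure Word (X : Λ → Set ℝ) (Leg : (Fin 6 → Λ) → Prop) : Prop where
  closed : ∀ l, IsClosed (X l)
  cover : ∀ u, ∃ l, u ∈ X l
  per : ∀ l u, u + 6 ∈ X l ↔ u ∈ X l
  leg : ∀ u, ∀ h : Fin 6 → Λ, (∀ k, u + (k.val : ℝ) ∈ X (h k)) → Leg h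

/-- A choice of a letter from a palette. -/
noncomputable def pick [Nonempty Λ] (S : Set Λ) : Λ := by
  classical
  exact if h : S.Nonempty then h.some else Classical.arbitrary Λ

theorem pick_mem [Nonempty Λ] {S : Set Λ} (h : S.Nonempty) : pick S ∈ S := by
  unfold pick; rw [dif_pos h]; exact h.some_mem

/-- A letter available at `u`. -/
noncomputable def lam [Nonempty Λ] (X : Λ → Set ℝ) (u : ℝ) : Λ := pick {l | u ∈ X l}

/-- The hexagon at `u`. -/
noncomputable def st [Nonempty Λ] (X : Λ → Set ℝ) (u : ℝ) : Fin 6 → Λ :=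
  fun k => lam X (u + (k.val : ℝ))

/-- Rotation of a hexagon. -/
def rot (h : Fin 6 → Λ) : Fin 6 → Λ := fun k => h (k + 1)

section
variable [Nonempty Λ] {X : Λ → Set ℝ} {Leg : (Fin 6 → Λ) → Prop}

theorem Word.lam_mem (w : Word X Leg) (u : ℝ) : u ∈ X (lam X u) := by
  have : ({l | u ∈ X l} : Set Λ).Nonempty := w.cover u
  exact pick_mem this

theorem Word.lam_per (w : Word X Leg) (u : ℝ) : lam X (u + 6) = lam X u := by
  unfold lam
  congr 1
  ext l
  exact w.per l u

theorem Word.st_mem (w : Word X Leg) (u : ℝ) (k : Fin 6) : u + (k.val : ℝ) ∈ X (st X u k) :=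
  w.lam_mem _

theorem Word.st_add_one (w : Word X Leg) (u : ℝ) : st X (u + 1) = rot (st X u) := by
  funext k
  unfold st rot
  by_cases hk : k = 5
  · subst hk
    have h1 : ((5 : Fin 6) + 1).val = 0 := rfl
    have h2 : (5 : Fin 6).val = 5 := rfl
    show lam X (u + 1 + ((5 : Fin 6).val : ℝ)) = lam X (u + (((5 : Fin 6) + 1).val : ℝ))
    rw [h1, h2]
    have : u + 1 + ((5 : ℕ) : ℝ) = (u + ((0 : ℕ) : ℝ)) + 6 := by push_cast; ring
    rw [this, w.lam_per]
  · have h1 : (k + 1).val = k.val + 1 := by
      have : k.val ≠ 5 := fun h => hk (Fin.ext h)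
      have h6 := k.isLt
      rw [Fin.val_add_one_of_lt]
      rw [Fin.lt_def]
      show k.val < 5
      omega
    show lam X (u + 1 + (k.val : ℝ)) = lam X (u + ((k + 1).val : ℝ))
    rw [h1]
    congr 1
    push_cast
    ring

omit [Nonempty Λ] in
/-- Near `u` only letters available at `u` occur. -/
theorem Word.near [Finite Λ] (w : Word X Leg) (u : ℝ) :
    ∀ᶠ v in 𝓝 u, ∀ k : Fin 6, ∀ l, v + (k.val : ℝ) ∈ X l → u + (k.val : ℝ) ∈ X l := by
  rw [eventually_all]
  intro k
  rw [eventually_all]
  intro l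
  by_cases h : u + (k.val : ℝ) ∈ X l
  · exact Eventually.of_forall fun v _ => h
  · have hc : Continuous fun v : ℝ => v + (k.val : ℝ) := by fun_prop
    have := (hc.tendsto u).eventually ((w.closed l).isOpen_compl.mem_nhds h)
    filter_upwards [this] with v hv hv'
    exact absurd hv' hv

variable {free : Λ → Λ → Prop} {cmp : (Fin 6 → Λ) → ℕ}

/-- One sided or two sided local constancy of `cmp`. -/
theorem Word.ev [Finite Λ] (w : Word X Leg)
    (hstep : ∀ h k l, Leg h → Leg (Function.update h k l) → free (h k) l →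
      cmp (Function.update h k l) = cmp h)
    {u : ℝ} {F : Filter ℝ} {P : Fin 6 → Set Λ}
    (hPX : ∀ k, ∀ l ∈ P k, u + (k.val : ℝ) ∈ X l)
    (hPF : ∀ᶠ v in F, ∀ k, st X v k ∈ P k)
    (hfree : ∀ k, ∀ a ∈ P k, ∀ b ∈ P k, free a b)
    {h : Fin 6 → Λ} (hh : ∀ k, h k ∈ P k) : ∀ᶠ v in F, cmp (st X v) = cmp h := by
  filter_upwards [hPF] with v hv
  exact sel_eq hstep (fun h hh => w.leg u h fun k => hPX k _ (hh k)) hfree hv hh

/-- Local constancy at a point without non-free pairs. -/
theorem Word.ev_nhds [Finite Λ] (w : Word X Leg)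
    (hstep : ∀ h k l, Leg h → Leg (Function.update h k l) → free (h k) l →
      cmp (Function.update h k l) = cmp h)
    {u : ℝ} (hfree : ∀ k : Fin 6, ∀ a b, u + (k.val : ℝ) ∈ X a → u + (k.val : ℝ) ∈ X b → free a b) :
    ∀ᶠ v in 𝓝 u, cmp (st X v) = cmp (st X u) := by
  refine w.ev (P := fun k => {l | u + (k.val : ℝ) ∈ X l}) hstep (fun k l hl => hl) ?_
    (fun k a ha b hb => hfree k a b ha hb) (fun k => w.st_mem u k)
  filter_upwards [w.near u] with v hv k
  exact hv k _ (w.st_mem v k)

/-- Constancy on an open interval without non-free pairs. -/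
theorem Word.const_Ioo [Finite Λ] (w : Word X Leg)
    (hstep : ∀ h k l, Leg h → Leg (Function.update h k l) → free (h k) l →
      cmp (Function.update h k l) = cmp h)
    {s : Set ℝ} (hs : IsPreconnected s)
    (hfree : ∀ u ∈ s, ∀ k : Fin 6, ∀ a b, u + (k.val : ℝ) ∈ X a → u + (k.val : ℝ) ∈ X b → free a b)
    {u v : ℝ} (hu : u ∈ s) (hv : v ∈ s) : cmp (st X u) = cmp (st X v) := by
  have hc : ContinuousOn (fun u => cmp (st X u)) s := by
    intro x hx
    have h1 := w.ev_nhds hstep (hfree x hx)
    have : Tendsto (fun u => cmp (st X u)) (𝓝 x) (pure (cmp (st X x))) := by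
      rw [tendsto_pure]; exact h1
    exact (this.mono_left nhdsWithin_le_nhds).mono_right (pure_le_nhds _)
  exact hs.constant hc hu hv

/-- The value of `cmp` at the two ends of an open interval without non-free pairs. -/
theorem Word.seg [Finite Λ] (w : Word X Leg)
    (hstep : ∀ h k l, Leg h → Leg (Function.update h k l) → free (h k) l →
      cmp (Function.update h k l) = cmp h)
    {a b : ℝ} (hab : a < b)
    (hfree : ∀ u ∈ Ioo a b, ∀ k : Fin 6, ∀ x y, u + (k.val : ℝ) ∈ X x → u + (k.val : ℝ) ∈ X y →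
      free x y)
    {p q : ℕ} (hp : ∀ᶠ v in 𝓝[>] a, cmp (st X v) = p) (hq : ∀ᶠ v in 𝓝[<] b, cmp (st X v) = q) :
    p = q := by
  have h1 : ∀ᶠ v in 𝓝[>] a, v ∈ Ioo a b := Ioo_mem_nhdsGT hab
  have h2 : ∀ᶠ v in 𝓝[<] b, v ∈ Ioo a b := Ioo_mem_nhdsLT hab
  obtain ⟨x, hx1, hx2⟩ := (hp.and h1).exists
  obtain ⟨y, hy1, hy2⟩ := (hq.and h2).exists
  rw [← hx1, ← hy1]
  exact w.const_Ioo hstep isPreconnected_Ioo hfree hx2 hy2

end

end Vale.Agent.P032.Words
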