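import Vale.Agent.P032.Words.Tab
import Vale.Agent.P032.Words.Jump

/-!
# Words on a circle: the facts L1 and L2

Letters `0 = e`, `1 = f`, `2 = A`, `3 = C`; angles in units of 60 degrees.
-/

namespace Vale.Agent.P032.Words

open Set Filter Topology

/-- hexagons with letters `e, f, A, C` -/
abbrev Hx := Fin 6 → Fin 4

/-- the code of a hexagon -/
def code (h : Hx) : ℕ :=
  (h 0).val + 4 * (h 1).val + 16 * (h 2).val + 64 * (h 3).val + 256 * (h 4).val + 1024 * (h 5).val

/-- legal hexagons: neighbours differ, `A` and `C` are never opposite -/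
def Leg4 (h : Hx) : Prop := (∀ k, h k ≠ h (k + 1)) ∧ ∀ k, ¬ (h k = 2 ∧ h (k + 3) = 3)

theorem code_lt (h : Hx) : code h < 4096 := by
  have h0 := (h 0).isLt
  have h1 := (h 1).isLt
  have h2 := (h 2).isLt
  have h3 := (h 3).isLt
  have h4 := (h 4).isLt
  have h5 := (h 5).isLt
  unfold code
  omega

theorem dg_code (h : Hx) (k : Fin 6) : dg (code h) k.val = (h k).val := by
  have h0 := (h 0).isLt
  have h1 := (h 1).isLt
  have h2 := (h 2).isLt
  have h3 := (h 3).isLt
  have h4 := (h 4).isLt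
  have h5 := (h 5).isLt
  fin_cases k <;> simp only [dg, code, Fin.zero_eta, Fin.mk_one, Fin.reduceFinMk] <;> norm_num <;> omega

theorem code_update (h : Hx) (k : Fin 6) (l : Fin 4) :
    code (Function.update h k l) = upd (code h) k.val l.val := by
  have hd := dg_code h k
  unfold upd
  rw [hd]
  have h0 := (h 0).isLt
  have h1 := (h 1).isLt
  have h2 := (h 2).isLt
  have h3 := (h 3).isLt
  have h4 := (h 4).isLt
  have h5 := (h 5).isLt
  fin_cases k <;> simp [code, Function.update] <;> omega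

theorem code_rot (h : Hx) : code (rot h) = rotN (code h) := by
  have h0 := (h 0).isLt
  have h1 := (h 1).isLt
  have h2 := (h 2).isLt
  have h3 := (h 3).isLt
  have h4 := (h 4).isLt
  have h5 := (h 5).isLt
  have e0 : rot h 0 = h 1 := rfl
  have e1 : rot h 1 = h 2 := rfl
  have e2 : rot h 2 = h 3 := rfl
  have e3 : rot h 3 = h 4 := rfl
  have e4 : rot h 4 = h 5 := rfl
  have e5 : rot h 5 = h 0 := rfl
  unfold rotN code
  rw [e0, e1, e2, e3, e4, e5]
  omega

theorem legN_code {h : Hx} (hl : Leg4 h) : legN (code h) = true := by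
  obtain ⟨ha, hb⟩ := hl
  have d : ∀ k : Fin 6, dg (code h) k.val = (h k).val := dg_code h
  have d0 : dg (code h) 0 = (h 0).val := d 0
  have d1 : dg (code h) 1 = (h 1).val := d 1
  have d2 : dg (code h) 2 = (h 2).val := d 2
  have d3 : dg (code h) 3 = (h 3).val := d 3
  have d4 : dg (code h) 4 = (h 4).val := d 4
  have d5 : dg (code h) 5 = (h 5).val := d 5
  have a0 : (h 0).val ≠ (h 1).val := fun h' => ha 0 (Fin.ext h')
  have a1 : (h 1).val ≠ (h 2).val := fun h' => ha 1 (Fin.ext h')
  have a2 : (h 2).val ≠ (h 3).val := fun h' => ha 2 (Fin.ext h')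
  have a3 : (h 3).val ≠ (h 4).val := fun h' => ha 3 (Fin.ext h')
  have a4 : (h 4).val ≠ (h 5).val := fun h' => ha 4 (Fin.ext h')
  have a5 : (h 5).val ≠ (h 0).val := fun h' => ha 5 (Fin.ext h')
  have b0 : ¬ ((h 0).val = 2 ∧ (h 3).val = 3) := fun h' => hb 0 ⟨Fin.ext h'.1, Fin.ext h'.2⟩
  have b1 : ¬ ((h 1).val = 2 ∧ (h 4).val = 3) := fun h' => hb 1 ⟨Fin.ext h'.1, Fin.ext h'.2⟩
  have b2 : ¬ ((h 2).val = 2 ∧ (h 5).val = 3) := fun h' => hb 2 ⟨Fin.ext h'.1, Fin.ext h'.2⟩
  have b3 : ¬ ((h 3).val = 2 ∧ (h 0).val = 3) := fun h' => hb 3 ⟨Fin.ext h'.1, Fin.ext h'.2⟩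
  have b4 : ¬ ((h 4).val = 2 ∧ (h 1).val = 3) := fun h' => hb 4 ⟨Fin.ext h'.1, Fin.ext h'.2⟩
  have b5 : ¬ ((h 5).val = 2 ∧ (h 2).val = 3) := fun h' => hb 5 ⟨Fin.ext h'.1, Fin.ext h'.2⟩
  unfold legN
  rw [d0, d1, d2, d3, d4, d5]
  simp only [Bool.and_eq_true, bne_iff_ne, Bool.not_eq_true', Bool.and_eq_false_iff,
    beq_eq_false_iff_ne]
  refine ⟨⟨⟨⟨⟨⟨⟨⟨⟨⟨⟨?_, ?_⟩, ?_⟩, ?_⟩, ?_⟩, ?_⟩, ?_⟩, ?_⟩, ?_⟩, ?_⟩, ?_⟩, ?_⟩ <;>
    first | assumption | exact not_and_or.mp (by assumption)

theorem all_range {n : ℕ} {p : ℕ → Bool} (h : (List.range n).all p = true) {i : ℕ} (hi : i < n) :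
    p i = true := List.all_eq_true.mp h i (List.mem_range.mpr hi)

/-- invariance of the table under free moves -/
theorem step_of_chk {T : ℕ} {fr : ℕ → ℕ → Bool} (hc : chkFree T fr = true) (h : Hx) (k : Fin 6)
    (l : Fin 4) (h1 : Leg4 h) (h2 : Leg4 (Function.update h k l))
    (h3 : fr (h k).val l.val = true) :
    cN T (code (Function.update h k l)) = cN T (code h) := by
  have a := all_range hc (code_lt h)
  rw [legN_code h1, Bool.not_true, Bool.false_or] at a
  have b := all_range (all_range a k.isLt) l.isLt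
  rw [← code_update, legN_code h2, dg_code, h3] at b
  simpa using b

theorem rot_of_chk {T : ℕ} (hc : chkRot T = true) {h : Hx} (h1 : Leg4 h) :
    cN T (code (rot h)) ≠ cN T (code h) := by
  have a := all_range hc (code_lt h)
  rw [legN_code h1, Bool.not_true, Bool.false_or, ← code_rot] at a
  simpa using a

/-- the word of a four coloured centre from the 60 degree rule and the rule on opposite letters -/
theorem word_of {X : Fin 4 → Set ℝ} (closed : ∀ l, IsClosed (X l)) (cover : ∀ u, ∃ l, u ∈ X l)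
    (per : ∀ l u, u + 6 ∈ X l ↔ u ∈ X l) (sixty : ∀ l u, u ∈ X l → u + 1 ∉ X l)
    (anti : ∀ u, u ∈ X 2 → u + 3 ∉ X 3) : Word X Leg4 := by
  refine ⟨closed, cover, per, ?_⟩
  intro u h hh
  constructor
  · intro k hk
    by_cases h5 : k = 5
    · subst h5
      have h1 := hh 5
      have h2 := hh 0
      have e1 : ((5 : Fin 6)).val = 5 := rfl
      have e2 : ((0 : Fin 6)).val = 0 := rfl
      have e3 : (5 : Fin 6) + 1 = 0 := rfl
      rw [e3] at hk
      rw [e1, hk] at h1
      rw [e2] at h2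
      refine sixty _ _ h1 ?_
      have : u + ((5 : ℕ) : ℝ) + 1 = (u + ((0 : ℕ) : ℝ)) + 6 := by push_cast; ring
      rw [this, per]
      exact h2
    · have h1 := hh k
      have h2 := hh (k + 1)
      have e : (k + 1).val = k.val + 1 := by
        have : k.val ≠ 5 := fun h => h5 (Fin.ext h)
        have h6 := k.isLt
        rw [Fin.val_add_one_of_lt]
        rw [Fin.lt_def]
        show k.val < 5
        omega
      rw [← hk, e] at h2
      refine sixty _ _ h1 ?_
      have : u + (k.val : ℝ) + 1 = u + ((k.val + 1 : ℕ) : ℝ) := by push_cast; ring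
      rw [this]
      exact h2
  · rintro k ⟨h2, h3⟩
    have a := hh k
    have b := hh (k + 3)
    rw [h2] at a
    rw [h3] at b
    refine anti _ a ?_
    by_cases hk : k.val < 3
    · have e : (k + 3).val = k.val + 3 := by
        rw [Fin.val_add]
        show (k.val + 3) % 6 = k.val + 3
        omega
      rw [e] at b
      have : u + (k.val : ℝ) + 3 = u + ((k.val + 3 : ℕ) : ℝ) := by push_cast; ring
      rw [this]
      exact b
    · have e : (k + 3).val = k.val - 3 := by
        rw [Fin.val_add]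
        show (k.val + 3) % 6 = k.val - 3
        have := k.isLt
        omega
      rw [e] at b
      have : u + (k.val : ℝ) + 3 = u + ((k.val - 3 : ℕ) : ℝ) + 6 := by
        rw [Nat.cast_sub (not_lt.mp hk)]
        push_cast
        ring
      rw [this, per]
      exact b

/-- **L1**: if `e` has no common points with `A` and with `C` there is no word. -/
theorem L1 {X : Fin 4 → Set ℝ} (w : Word X Leg4) (h02 : ∀ u, u ∈ X 0 → u ∉ X 2)
    (h03 : ∀ u, u ∈ X 0 → u ∉ X 3) (h23 : ∀ u, u ∈ X 2 → u ∉ X 3) : False := by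
  have hstep : ∀ (h : Fin 6 → Fin 4) k l, Leg4 h → Leg4 (Function.update h k l) →
      (fun x y : Fin 4 => fr1 x.val y.val = true) (h k) l →
      (fun g => cN T1 (code g)) (Function.update h k l) = (fun g => cN T1 (code g)) h :=
    fun h k l h1 h2 h3 => step_of_chk chkFree1 h k l h1 h2 h3
  have hfree : ∀ u ∈ (univ : Set ℝ), ∀ k : Fin 6, ∀ a b : Fin 4, u + (k.val : ℝ) ∈ X a →
      u + (k.val : ℝ) ∈ X b → fr1 a.val b.val = true := by
    intro u _ k a b ha hb
    generalize u + (k.val : ℝ) = v at ha hb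
    fin_cases a <;> fin_cases b <;> first
      | rfl
      | exact absurd hb (h02 _ ha)
      | exact absurd hb (h03 _ ha)
      | exact absurd hb (h23 _ ha)
      | exact absurd ha (h02 _ hb)
      | exact absurd ha (h03 _ hb)
      | exact absurd ha (h23 _ hb)
  have key := w.const_Ioo (cmp := fun g => cN T1 (code g)) hstep isPreconnected_univ hfree
    (mem_univ (0 : ℝ)) (mem_univ (0 + 1))
  rw [w.st_add_one] at key
  exact rot_of_chk chkRot1 (w.leg 0 _ (w.st_mem 0)) key.symm

end Vale.Agent.P032.Words
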