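import Vale.Agent.P032.Words.L12

/-!
# Words on a circle: the facts L2 and L3

Letters `0 = e`, `1 = f`, `2 = A`, `3 = C`; angles in units of 60 degrees.
-/

namespace Vale.Agent.P032.Words

open Set Filter Topology

/-- component of a hexagon under the free moves `e|f`, `f|A`, `e|C` -/
def cp (h : Hx) : ℕ := cN T2 (code h)

/-- free pairs -/
def Fr (x y : Fin 4) : Prop := fr2 x.val y.val = true

theorem Fr.refl (x : Fin 4) : Fr x x := by unfold Fr fr2; simp

theorem cp_step (h : Hx) (k : Fin 6) (l : Fin 4) (h1 : Leg4 h) (h2 : Leg4 (Function.update h k l))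
    (h3 : Fr (h k) l) : cp (Function.update h k l) = cp h := step_of_chk chkFree2 h k l h1 h2 h3

theorem cp_lt {h : Hx} (h1 : Leg4 h) : cp h < 20 := by
  have a := all_range chkLt_true (code_lt h)
  rw [legN_code h1, Bool.not_true, Bool.false_or] at a
  simpa [cp] using a

/-- moves `f|C` at the positions of a list -/
def Reach : List (Fin 6) → ℕ → ℕ → Prop
  | [], p, q => p = q
  | k :: ks, p, q => ∃ m, m < 20 ∧ relN (rq k.val) p m = true ∧ Reach ks m q

theorem Reach.append : ∀ {L L' : List (Fin 6)} {p q r : ℕ}, Reach L p q → Reach L' q r →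
    Reach (L ++ L') p r
  | [], L', p, q, r, h, h' => by rw [show p = q from h]; exact h'
  | k :: ks, L', p, q, r, ⟨m, h0, h1, h2⟩, h' => ⟨m, h0, h1, Reach.append h2 h'⟩

theorem rq_step {h : Hx} {k : Fin 6} {a b : Fin 4} (h1 : Leg4 h)
    (h2 : Leg4 (Function.update h k b)) (hk : h k = a) (hab : (a = 1 ∧ b = 3) ∨ (a = 3 ∧ b = 1)) :
    relN (rq k.val) (cp h) (cp (Function.update h k b)) = true := by
  have c := all_range chkQ_true (code_lt h)
  rw [legN_code h1, Bool.not_true, Bool.false_or] at c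
  have d := all_range c k.isLt
  have e2 := legN_code h2
  rw [code_update] at e2
  unfold cp
  rw [code_update]
  have e1 := dg_code h k
  rw [hk] at e1
  rcases hab with ⟨ha, hb⟩ | ⟨ha, hb⟩
  · subst ha; subst hb
    have e1' : dg (code h) k.val = 1 := e1
    have e2' : legN (upd (code h) k.val 3) = true := e2
    have := (Bool.and_eq_true _ _ ▸ d).1
    rw [e1', e2'] at this
    simpa using this
  · subst ha; subst hb
    have e1' : dg (code h) k.val = 3 := e1
    have e2' : legN (upd (code h) k.val 1) = true := e2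
    have := (Bool.and_eq_true _ _ ▸ d).2
    rw [e1', e2'] at this
    simpa using this

theorem vr_step {h : Hx} {a b : Fin 4} (h1 : Leg4 h)
    (h2 : Leg4 (Function.update h 0 b)) (hk : h 0 = a) (hab : (a = 0 ∧ b = 2) ∨ (a = 2 ∧ b = 0)) :
    relN vr (cp (Function.update h 0 b)) (cp (rot h)) = true := by
  have c := all_range chkV_true (code_lt h)
  rw [legN_code h1, Bool.not_true, Bool.false_or] at c
  have e2 := legN_code h2
  rw [code_update] at e2
  unfold cp
  rw [code_update, code_rot]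
  have e1 := dg_code h 0
  rw [hk] at e1
  rcases hab with ⟨ha, hb⟩ | ⟨ha, hb⟩
  · subst ha; subst hb
    have e1' : dg (code h) 0 = 0 := e1
    have e2' : legN (upd (code h) 0 2) = true := e2
    have := (Bool.and_eq_true _ _ ▸ c).1
    rw [e1', e2'] at this
    simpa using this
  · subst ha; subst hb
    have e1' : dg (code h) 0 = 2 := e1
    have e2' : legN (upd (code h) 0 0) = true := e2
    have := (Bool.and_eq_true _ _ ▸ c).2
    rw [e1', e2'] at this
    simpa using this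

/-- a clean end of type `f|C` -/
def QMark (X : Fin 4 → Set ℝ) (V : ℝ) : Prop := Mark X 1 3 V ∨ Mark X 3 1 V

/-- a clean end of type `e|A` -/
def VMark (X : Fin 4 → Set ℝ) (V : ℝ) : Prop := Mark X 0 2 V ∨ Mark X 2 0 V

theorem reach_list {M : Finset (Fin 6)} {a b : Fin 6 → Fin 4} {h : Finset (Fin 6) → Hx}
    (hleg : ∀ S, Leg4 (h S))
    (hins : ∀ S, ∀ k ∈ M, k ∉ S → h S k = a k ∧ h (insert k S) = Function.update (h S) k (b k)) :
    ∀ (L : List (Fin 6)) (S : Finset (Fin 6)), L.Nodup → (∀ k ∈ L, k ∈ M ∧ k ∉ S ∧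
      ((a k = 1 ∧ b k = 3) ∨ (a k = 3 ∧ b k = 1))) →
      Reach L (cp (h S)) (cp (h (L.foldl (fun S k => insert k S) S)))
  | [], S, _, _ => rfl
  | k :: ks, S, hn, hL => by
    obtain ⟨h1, h2, h3⟩ := hL k (by simp)
    obtain ⟨e1, e2⟩ := hins S k h1 h2
    refine ⟨cp (h (insert k S)), cp_lt (hleg _), ?_, ?_⟩
    · rw [e2]
      exact rq_step (hleg S) (e2 ▸ hleg _) e1 h3
    · refine reach_list hleg hins ks (insert k S) (List.nodup_cons.mp hn).2 ?_
      intro j hj
      obtain ⟨g1, g2, g3⟩ := hL j (List.mem_cons_of_mem _ hj)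
      refine ⟨g1, ?_, g3⟩
      rw [Finset.mem_insert]
      rintro (h' | h')
      · subst h'; exact (List.nodup_cons.mp hn).1 hj
      · exact g2 h'

theorem foldl_insert (L : List (Fin 6)) : ∀ S : Finset (Fin 6),
    L.foldl (fun S k => insert k S) S = S ∪ L.toFinset := by
  induction L with
  | nil => intro S; simp
  | cons k ks ih =>
    intro S
    rw [List.foldl_cons, ih, List.toFinset_cons]
    ext j
    simp only [Finset.mem_union, Finset.mem_insert]
    tauto

/-- Passing a point with marks of type `f|C` at the positions of `L`. -/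
theorem jumpQ {X : Fin 4 → Set ℝ} (w : Word X Leg4) {u : ℝ} {L : List (Fin 6)} (hL : L.Nodup)
    (hM : ∀ k ∈ L, QMark X (u + (k.val : ℝ)))
    (hN : ∀ k ∉ L, ∀ x y, u + (k.val : ℝ) ∈ X x → u + (k.val : ℝ) ∈ X y → Fr x y)
    {p : ℕ} (hp : ∀ᶠ v in 𝓝[<] u, cp (st X v) = p) :
    ∃ q, (∀ᶠ v in 𝓝[>] u, cp (st X v) = q) ∧ Reach L p q := by
  classical
  have hc : ∀ k : Fin 6, ∃ ab : Fin 4 × Fin 4, k ∈ L → Mark X ab.1 ab.2 (u + (k.val : ℝ)) ∧
      ((ab.1 = 1 ∧ ab.2 = 3) ∨ (ab.1 = 3 ∧ ab.2 = 1)) := by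
    intro k
    by_cases hk : k ∈ L
    · rcases hM k hk with h | h
      · exact ⟨(1, 3), fun _ => ⟨h, Or.inl ⟨rfl, rfl⟩⟩⟩
      · exact ⟨(3, 1), fun _ => ⟨h, Or.inr ⟨rfl, rfl⟩⟩⟩
    · exact ⟨(0, 0), fun h => absurd h hk⟩
  choose ab hab using hc
  obtain ⟨h, hleg, hins, hl, hr, -⟩ := w.jump (free := Fr) (cmp := cp) cp_step Fr.refl L.toFinset
    (fun k => (ab k).1) (fun k => (ab k).2)
    (fun k hk => (hab k (List.mem_toFinset.mp hk)).1)
    (fun k hk => hN k fun h' => hk (List.mem_toFinset.mpr h'))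
  refine ⟨_, hr, ?_⟩
  have e : p = cp (h ∅) := by
    obtain ⟨v, h1, h2⟩ := (hp.and hl).exists
    rw [← h1, h2]
  have := reach_list hleg hins L ∅ hL (fun k hk => ⟨List.mem_toFinset.mpr hk,
    Finset.notMem_empty k, (hab k hk).2⟩)
  rw [foldl_insert, Finset.empty_union] at this
  rw [e]
  exact this

/-- Passing the mark `V` of type `e|A` and marks of type `f|C` at the positions of `L`. -/
theorem jumpV {X : Fin 4 → Set ℝ} (w : Word X Leg4) {u : ℝ} {L : List (Fin 6)} (hL : L.Nodup)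
    (hL0 : (0 : Fin 6) ∉ L) (hV : VMark X u)
    (hM : ∀ k ∈ L, QMark X (u + (k.val : ℝ)))
    (hN : ∀ k ∉ L, k ≠ 0 → ∀ x y, u + (k.val : ℝ) ∈ X x → u + (k.val : ℝ) ∈ X y → Fr x y) :
    ∃ p q F, (∀ᶠ v in 𝓝[>] u, cp (st X v) = q) ∧ (∀ᶠ v in 𝓝[<] (u + 1), cp (st X v) = F) ∧
      p < 20 ∧ F < 20 ∧ relN vr p F = true ∧ Reach L p q := by
  classical
  have hc : ∀ k : Fin 6, ∃ ab : Fin 4 × Fin 4, k ∈ L → Mark X ab.1 ab.2 (u + (k.val : ℝ)) ∧
      ((ab.1 = 1 ∧ ab.2 = 3) ∨ (ab.1 = 3 ∧ ab.2 = 1)) := by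
    intro k
    by_cases hk : k ∈ L
    · rcases hM k hk with h | h
      · exact ⟨(1, 3), fun _ => ⟨h, Or.inl ⟨rfl, rfl⟩⟩⟩
      · exact ⟨(3, 1), fun _ => ⟨h, Or.inr ⟨rfl, rfl⟩⟩⟩
    · exact ⟨(0, 0), fun h => absurd h hk⟩
  choose ab hab using hc
  have hcV : ∃ ab : Fin 4 × Fin 4, Mark X ab.1 ab.2 u ∧
      ((ab.1 = 0 ∧ ab.2 = 2) ∨ (ab.1 = 2 ∧ ab.2 = 0)) := by
    rcases hV with h | h
    · exact ⟨(0, 2), h, Or.inl ⟨rfl, rfl⟩⟩
    · exact ⟨(2, 0), h, Or.inr ⟨rfl, rfl⟩⟩
  obtain ⟨av, hav, hav2⟩ := hcV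
  have e0 : u + ((0 : Fin 6).val : ℝ) = u := by simp
  obtain ⟨h, hleg, hins, hl, hr, hF⟩ := w.jump (free := Fr) (cmp := cp) cp_step Fr.refl
    (insert 0 L.toFinset)
    (fun k => if k = 0 then av.1 else (ab k).1) (fun k => if k = 0 then av.2 else (ab k).2)
    (by
      intro k hk
      by_cases h0 : k = 0
      · subst h0
        rw [e0, if_pos rfl, if_pos rfl]
        exact hav
      · rw [if_neg h0, if_neg h0]
        rcases Finset.mem_insert.mp hk with h' | h'
        · exact absurd h' h0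
        · exact (hab k (List.mem_toFinset.mp h')).1)
    (by
      intro k hk
      rw [Finset.mem_insert, not_or, List.mem_toFinset] at hk
      exact hN k hk.2 hk.1)
  obtain ⟨e1, e2⟩ := hins ∅ 0 (Finset.mem_insert_self _ _) (Finset.notMem_empty _)
  rw [if_pos rfl] at e1 e2
  refine ⟨cp (h (insert 0 ∅)), _, _, hr, hF, cp_lt (hleg _), ?_, ?_, ?_⟩
  · -- legality of the rotated hexagon
    have : Leg4 (rot (h ∅)) := by
      obtain ⟨ha, hb⟩ := hleg ∅
      refine ⟨fun k => ha (k + 1), fun k => ?_⟩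
      have := hb (k + 1)
      unfold rot
      have e : k + 3 + 1 = k + 1 + 3 := add_right_comm k 3 1
      rw [e]
      exact this
    exact cp_lt this
  · have hl2 := hleg (insert 0 ∅)
    rw [e2] at hl2 ⊢
    exact vr_step (hleg ∅) hl2 e1 hav2
  · have := reach_list hleg hins L (insert 0 ∅) hL (fun k hk => by
      have hk0 : k ≠ 0 := fun h' => hL0 (h' ▸ hk)
      refine ⟨Finset.mem_insert_of_mem (List.mem_toFinset.mpr hk), ?_, ?_⟩
      · rw [Finset.mem_insert, not_or]
        exact ⟨hk0, Finset.notMem_empty k⟩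
      · rw [if_neg hk0, if_neg hk0]
        exact (hab k hk).2)
    rw [foldl_insert] at this
    have e : (insert 0 ∅ : Finset (Fin 6)) ∪ L.toFinset = insert 0 L.toFinset := by
      ext j; simp [Finset.mem_insert]
    rw [e] at this
    exact this

/-- the final table -/
theorem pat_of {p F : ℕ} (hp : p < 20) (hF : F < 20) (h : relN vr p F = true) {k l : Fin 6}
    (hr : Reach [k, l] p F) : pat k.val l.val = true := by
  obtain ⟨m, hm, h1, m2, hm2, h2, h3⟩ := hr
  have h3' : m2 = F := h3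
  subst h3'
  have a := all_range (all_range chkPat_true hp) hF
  rw [h, Bool.not_true, Bool.false_or] at a
  have b := all_range a k.isLt
  have c := (Bool.and_eq_true _ _ ▸ b).2
  have d := all_range c hm
  rw [h1, Bool.not_true, Bool.false_or] at d
  have e := all_range d l.isLt
  rw [h2, Bool.not_true, Bool.false_or] at e
  exact e

theorem no_one {p F : ℕ} (hp : p < 20) (hF : F < 20) (h : relN vr p F = true) {k : Fin 6}
    (hr : Reach [k] p F) : False := by
  obtain ⟨m, hm, h1, h2⟩ := hr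
  have h2' : m = F := h2
  subst h2'
  have a := all_range (all_range chkPat_true hp) hF
  rw [h, Bool.not_true, Bool.false_or] at a
  have b := all_range a k.isLt
  have c := (Bool.and_eq_true _ _ ▸ b).1
  rw [h1] at c
  exact absurd c (by simp)

/-- No letters in common except at the marks. -/
theorem nonfree {X : Fin 4 → Set ℝ} (h23 : ∀ u, u ∈ X 2 → u ∉ X 3) {v : ℝ} {x y : Fin 4}
    (hx : v ∈ X x) (hy : v ∈ X y) : Fr x y ∨ (v ∈ X 0 ∧ v ∈ X 2) ∨ (v ∈ X 1 ∧ v ∈ X 3) := by
  fin_cases x <;> fin_cases y <;> first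
    | exact Or.inl rfl
    | exact Or.inr (Or.inl ⟨hx, hy⟩)
    | exact Or.inr (Or.inl ⟨hy, hx⟩)
    | exact Or.inr (Or.inr ⟨hx, hy⟩)
    | exact Or.inr (Or.inr ⟨hy, hx⟩)
    | exact absurd hy (h23 _ hx)
    | exact absurd hx (h23 _ hy)

/-- two points of `[0, 6)` which are equal modulo `6`, with integer parts -/
theorem eq_of_mod {j k : Fin 6} {r s : ℝ} (hr0 : 0 ≤ r) (hr1 : r < 1) (hs0 : 0 ≤ s) (hs1 : s < 1)
    {n : ℤ} (h : r + (j.val : ℝ) = s + (k.val : ℝ) + 6 * (n : ℝ)) : r = s ∧ j = k := by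
  have hj : j.val < 6 := j.isLt
  have hk : k.val < 6 := k.isLt
  have hj' : (j.val : ℝ) ≤ 5 := by exact_mod_cast (by omega : j.val ≤ 5)
  have hk' : (k.val : ℝ) ≤ 5 := by exact_mod_cast (by omega : k.val ≤ 5)
  have hj0 : (0 : ℝ) ≤ (j.val : ℝ) := by positivity
  have hk0 : (0 : ℝ) ≤ (k.val : ℝ) := by positivity
  have hn1 : (n : ℝ) < 1 := by linarith
  have hn2 : (-1 : ℝ) < (n : ℝ) := by linarith
  have hn : n = 0 := by
    have a1 : n < 1 := by exact_mod_cast hn1
    have a2 : -1 < n := by exact_mod_cast hn2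
    omega
  rw [hn] at h
  have h2 : r - s = ((k.val : ℤ) - (j.val : ℤ) : ℤ) := by
    push_cast
    have : ((0 : ℤ) : ℝ) = 0 := by simp
    rw [this] at h
    linarith
  have h3 : ((k.val : ℤ) - (j.val : ℤ)) = 0 := by
    have a1 : (((k.val : ℤ) - (j.val : ℤ) : ℤ) : ℝ) < 1 := by rw [← h2]; linarith
    have a2 : (-1 : ℝ) < (((k.val : ℤ) - (j.val : ℤ) : ℤ) : ℝ) := by rw [← h2]; linarith
    have b1 : ((k.val : ℤ) - (j.val : ℤ)) < 1 := by exact_mod_cast a1
    have b2 : -1 < ((k.val : ℤ) - (j.val : ℤ)) := by exact_mod_cast a2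
    omega
  rw [h3] at h2
  refine ⟨by simpa [sub_eq_zero] using h2, ?_⟩
  apply Fin.ext
  omega

section main
variable {X : Fin 4 → Set ℝ}

/-- **L2**: exactly one end `e|A` and exactly one end `f|C` is impossible. -/
theorem L2 (w : Word X Leg4) (h23 : ∀ u, u ∈ X 2 → u ∉ X 3) {V : ℝ} (hV : VMark X V)
    (hVu : ∀ u, u ∈ X 0 → u ∈ X 2 → ∃ n : ℤ, u = V + 6 * n)
    {k : Fin 6} {r : ℝ} (hr0 : 0 ≤ r) (hr1 : r < 1) (hQ : QMark X (V + r + (k.val : ℝ)))
    (hQu : ∀ u, u ∈ X 1 → u ∈ X 3 → ∃ n : ℤ, u = V + r + (k.val : ℝ) + 6 * n) : False := by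
  have hfree : ∀ (s : ℝ), 0 ≤ s → s < 1 → ∀ (j : Fin 6) (x y : Fin 4), V + s + (j.val : ℝ) ∈ X x →
      V + s + (j.val : ℝ) ∈ X y → ¬ (s = 0 ∧ j = 0) → ¬ (s = r ∧ j = k) → Fr x y := by
    intro s hs0 hs1 j x y hx hy n1 n2
    rcases nonfree h23 hx hy with h | ⟨h0, h2⟩ | ⟨h1, h3⟩
    · exact h
    · obtain ⟨n, hn⟩ := hVu _ h0 h2
      have : s + (j.val : ℝ) = 0 + ((0 : Fin 6).val : ℝ) + 6 * (n : ℝ) := by
        have : (((0 : Fin 6).val : ℕ) : ℝ) = 0 := by simp
        rw [this]; linarith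
      exact absurd (eq_of_mod hs0 hs1 le_rfl one_pos this) n1
    · obtain ⟨n, hn⟩ := hQu _ h1 h3
      exact absurd (eq_of_mod hs0 hs1 hr0 hr1 (by linarith)) n2
  have hk0 : ¬ (r = 0 ∧ k = 0) := by
    rintro ⟨h1, h2⟩
    subst h2
    have e : V + r + (((0 : Fin 6).val : ℕ) : ℝ) = V := by rw [h1]; simp
    rw [e] at hQ
    have hV0 : V ∈ X 0 := by rcases hV with h | h; exacts [h.mem_a, h.mem_b]
    rcases hQ with h | h <;> rcases h.only _ hV0 with h' | h' <;> exact absurd h' (by decide)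
  have seg := fun {a b : ℝ} (hab : a < b) hf {p q : ℕ} hp hq =>
    w.seg (free := Fr) (cmp := cp) cp_step (a := a) (b := b) hab hf (p := p) (q := q) hp hq
  rcases eq_or_lt_of_le hr0 with h0 | h0
  · -- tie
    subst h0
    have hkne : k ≠ 0 := fun h => hk0 ⟨rfl, h⟩
    obtain ⟨p, q, F, hq, hF, hp20, hF20, hvr, hre⟩ := jumpV (L := [k]) w (by simp)
      (by simpa using fun h => hkne h.symm) hV
      (by intro j hj; rw [List.mem_singleton] at hj; subst hj; simpa using hQ)
      (by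
        intro j hj hj0 x y hx hy
        rw [List.mem_singleton] at hj
        exact hfree 0 le_rfl one_pos j x y (by simpa using hx) (by simpa using hy)
          (fun h => hj0 h.2) (fun h => hj h.2))
    have := seg (a := V) (b := V + 1) (by linarith) (by
      intro u hu j x y hx hy
      refine hfree (u - V) (by linarith [hu.1]) (by linarith [hu.2]) j x y ?_ ?_ ?_ ?_
      · have e : V + (u - V) = u := by ring
        rw [e]; exact hx
      · have e : V + (u - V) = u := by ring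
        rw [e]; exact hy
      · rintro ⟨h1, -⟩; linarith [hu.1]
      · rintro ⟨h1, -⟩; linarith [hu.1]) hq hF
    subst this
    exact no_one hp20 hF20 hvr hre
  · obtain ⟨p, q, F, hq, hF, hp20, hF20, hvr, hre⟩ := jumpV (L := []) w (by simp)
      (by simp) hV (by intro j hj; simp at hj)
      (by
        intro j _ hj0 x y hx hy
        exact hfree 0 le_rfl one_pos j x y (by simpa using hx) (by simpa using hy)
          (fun h => hj0 h.2) (fun h => h0.ne h.1))
    have hpq : p = q := hre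
    have hl : ∀ᶠ v in 𝓝[<] (V + r), cp (st X v) = q := by
      have h1 : ∀ᶠ v in 𝓝[<] (V + r), v ∈ Ioo V (V + r) := Ioo_mem_nhdsLT (by linarith)
      have h2 : ∀ᶠ v in 𝓝[>] V, v ∈ Ioo V (V + r) := Ioo_mem_nhdsGT (by linarith)
      obtain ⟨x, hx1, hx2⟩ := (hq.and h2).exists
      filter_upwards [h1] with v hv
      rw [← hx1]
      refine w.const_Ioo (free := Fr) (cmp := cp) cp_step (isPreconnected_Ioo) ?_ hv hx2
      intro u hu j x y hx hy
      refine hfree (u - V) (by linarith [hu.1]) (by linarith [hu.2]) j x y ?_ ?_ ?_ ?_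
      · have e : V + (u - V) = u := by ring
        rw [e]; exact hx
      · have e : V + (u - V) = u := by ring
        rw [e]; exact hy
      · rintro ⟨h1, -⟩; linarith [hu.1]
      · rintro ⟨h1, -⟩; linarith [hu.2]
    obtain ⟨q2, hq2, hre2⟩ := jumpQ (L := [k]) w (by simp)
      (by intro j hj; rw [List.mem_singleton] at hj; subst hj; exact hQ)
      (by
        intro j hj x y hx hy
        rw [List.mem_singleton] at hj
        exact hfree r hr0 hr1 j x y hx hy (fun h => h0.ne' h.1) (fun h => hj h.2)) hl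
    have := seg (a := V + r) (b := V + 1) (by linarith) (by
      intro u hu j x y hx hy
      refine hfree (u - V) (by linarith [hu.1]) (by linarith [hu.2]) j x y ?_ ?_ ?_ ?_
      · have e : V + (u - V) = u := by ring
        rw [e]; exact hx
      · have e : V + (u - V) = u := by ring
        rw [e]; exact hy
      · rintro ⟨h1, -⟩; linarith [hu.1]
      · rintro ⟨h1, -⟩; linarith [hu.1]) hq2 hF
    subst this
    subst hpq
    exact no_one hp20 hF20 hvr hre2

end main

end Vale.Agent.P032.Words
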