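import Vale.Agent.P032.Words.L3

/-!
# Words on a circle: user level forms of L1, L2, L3

`Raw X`: the word of a four coloured centre.  Letters `0 = e`, `1 = f` (missing colours), `2 = A`,
`3 = C` (double pairs); angles in units of 60 degrees.  The roles of `e, f` and of `A, C` can be
exchanged (`Raw.perm`).  An *end* of type `(x, y)` is a clean transition between the letters `x` and `y`.
-/

namespace Vale.Agent.P032.Words

open Set Filter Topology

/-- The word of a four coloured centre. -/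
structure Raw (X : Fin 4 → Set ℝ) : Prop where
  closed : ∀ l, IsClosed (X l)
  cover : ∀ u, ∃ l, u ∈ X l
  per : ∀ l u, u + 6 ∈ X l ↔ u ∈ X l
  sixty : ∀ l u, u ∈ X l → u + 1 ∉ X l
  anti : ∀ u, u ∈ X 2 → u + 3 ∉ X 3
  ac : ∀ u, u ∈ X 2 → u ∉ X 3

/-- A clean end of type `(x, y)`. -/
def End (X : Fin 4 → Set ℝ) (x y : Fin 4) (V : ℝ) : Prop := Mark X x y V ∨ Mark X y x V

variable {X : Fin 4 → Set ℝ}

theorem Raw.word (R : Raw X) : Word X Leg4 := word_of R.closed R.cover R.per R.sixty R.anti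

theorem Raw.anti' (R : Raw X) (u : ℝ) (h : u ∈ X 3) : u + 3 ∉ X 2 := fun h' =>
  R.anti _ h' (by
    have : u + 3 + 3 = u + 6 := by ring
    rw [this, R.per]; exact h)

/-- exchange of `e` and `f` -/
theorem Raw.swapEF (R : Raw X) : Raw ![X 1, X 0, X 2, X 3] := by
  refine ⟨?_, ?_, ?_, ?_, R.anti, R.ac⟩
  · intro l; fin_cases l
    exacts [R.closed 1, R.closed 0, R.closed 2, R.closed 3]
  · intro u
    obtain ⟨l, hl⟩ := R.cover u
    fin_cases l
    exacts [⟨1, hl⟩, ⟨0, hl⟩, ⟨2, hl⟩, ⟨3, hl⟩]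
  · intro l u; fin_cases l
    exacts [R.per 1 u, R.per 0 u, R.per 2 u, R.per 3 u]
  · intro l u; fin_cases l
    exacts [R.sixty 1 u, R.sixty 0 u, R.sixty 2 u, R.sixty 3 u]

/-- exchange of `A` and `C` -/
theorem Raw.swapAC (R : Raw X) : Raw ![X 0, X 1, X 3, X 2] := by
  refine ⟨?_, ?_, ?_, ?_, R.anti', fun u h h' => R.ac u h' h⟩
  · intro l; fin_cases l
    exacts [R.closed 0, R.closed 1, R.closed 3, R.closed 2]
  · intro u
    obtain ⟨l, hl⟩ := R.cover u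
    fin_cases l
    exacts [⟨0, hl⟩, ⟨1, hl⟩, ⟨3, hl⟩, ⟨2, hl⟩]
  · intro l u; fin_cases l
    exacts [R.per 0 u, R.per 1 u, R.per 3 u, R.per 2 u]
  · intro l u; fin_cases l
    exacts [R.sixty 0 u, R.sixty 1 u, R.sixty 3 u, R.sixty 2 u]

theorem Mark.swapEF {x y : Fin 4} {V : ℝ} (m : Mark X x y V) :
    Mark ![X 1, X 0, X 2, X 3] (Equiv.swap 0 1 x) (Equiv.swap 0 1 y) V := by
  have e : ∀ l : Fin 4, (![X 1, X 0, X 2, X 3] : Fin 4 → Set ℝ) (Equiv.swap 0 1 l) = X l := by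
    intro l; fin_cases l <;> rfl
  refine ⟨?_, ?_, ?_, ?_, ?_⟩
  · rw [e]; exact m.mem_a
  · rw [e]; exact m.mem_b
  · intro l hl
    have e2 : (![X 1, X 0, X 2, X 3] : Fin 4 → Set ℝ) l = X (Equiv.swap 0 1 l) := by
      rw [← e (Equiv.swap 0 1 l), Equiv.swap_apply_self]
    rw [e2] at hl
    rcases m.only _ hl with h | h
    · left; rw [← h, Equiv.swap_apply_self]
    · right; rw [← h, Equiv.swap_apply_self]
  · rw [e]; exact m.left
  · rw [e]; exact m.right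

theorem Mark.swapAC {x y : Fin 4} {V : ℝ} (m : Mark X x y V) :
    Mark ![X 0, X 1, X 3, X 2] (Equiv.swap 2 3 x) (Equiv.swap 2 3 y) V := by
  have e : ∀ l : Fin 4, (![X 0, X 1, X 3, X 2] : Fin 4 → Set ℝ) (Equiv.swap 2 3 l) = X l := by
    intro l; fin_cases l <;> rfl
  refine ⟨?_, ?_, ?_, ?_, ?_⟩
  · rw [e]; exact m.mem_a
  · rw [e]; exact m.mem_b
  · intro l hl
    have e2 : (![X 0, X 1, X 3, X 2] : Fin 4 → Set ℝ) l = X (Equiv.swap 2 3 l) := by
      rw [← e (Equiv.swap 2 3 l), Equiv.swap_apply_self]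
    rw [e2] at hl
    rcases m.only _ hl with h | h
    · left; rw [← h, Equiv.swap_apply_self]
    · right; rw [← h, Equiv.swap_apply_self]
  · rw [e]; exact m.left
  · rw [e]; exact m.right

theorem End.swapEF {x y : Fin 4} {V : ℝ} (m : End X x y V) :
    End ![X 1, X 0, X 2, X 3] (Equiv.swap 0 1 x) (Equiv.swap 0 1 y) V :=
  m.imp Mark.swapEF Mark.swapEF

theorem End.swapAC {x y : Fin 4} {V : ℝ} (m : End X x y V) :
    End ![X 0, X 1, X 3, X 2] (Equiv.swap 2 3 x) (Equiv.swap 2 3 y) V :=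
  m.imp Mark.swapAC Mark.swapAC

/-- **L1**: `e` meets `A` or `C`. -/
theorem Raw.L1e (R : Raw X) : ∃ u, u ∈ X 0 ∧ (u ∈ X 2 ∨ u ∈ X 3) := by
  by_contra h
  push Not at h
  exact L1 R.word (fun u hu => (h u hu).1) (fun u hu => (h u hu).2) R.ac

/-- **L1**: `f` meets `A` or `C`. -/
theorem Raw.L1f (R : Raw X) : ∃ u, u ∈ X 1 ∧ (u ∈ X 2 ∨ u ∈ X 3) := R.swapEF.L1e

/-- **L2**: not exactly one end `e|A` and exactly one end `f|C`. -/
theorem Raw.L2 (R : Raw X) {V Q : ℝ} (hV : End X 0 2 V) (hQ : End X 1 3 Q)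
    (hVu : ∀ u, u ∈ X 0 → u ∈ X 2 → ∃ n : ℤ, u = V + 6 * n)
    (hQu : ∀ u, u ∈ X 1 → u ∈ X 3 → ∃ n : ℤ, u = Q + 6 * n) : False := by
  -- reduce `V` to the window `[Q, Q + 6)`, with the roles of the two ends kept
  obtain ⟨m, hm⟩ : ∃ m : ℤ, V ≤ Q + 6 * m ∧ Q + 6 * m < V + 6 := by
    refine ⟨-⌊(Q - V) / 6⌋, ?_, ?_⟩
    · have := Int.floor_le ((Q - V) / 6)
      push_cast; linarith
    · have := Int.lt_floor_add_one ((Q - V) / 6)
      push_cast; linarith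
  obtain ⟨hm1, hm2⟩ := hm
  have perZ : ∀ (n : ℤ) (l : Fin 4) (u : ℝ), u + 6 * (n : ℝ) ∈ X l ↔ u ∈ X l := by
    intro n l
    induction n with
    | zero => intro u; simp
    | succ i ih =>
      intro u
      have : u + 6 * (((i : ℤ) + 1 : ℤ) : ℝ) = (u + 6 * ((i : ℤ) : ℝ)) + 6 := by push_cast; ring
      rw [this, R.per, ih]
    | pred i ih =>
      intro u
      have : u + 6 * ((-(i : ℤ) - 1 : ℤ) : ℝ) + 6 = u + 6 * ((-(i : ℤ) : ℤ) : ℝ) := by
        push_cast; ring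
      rw [← R.per, this, ih]
  have hmark : ∀ {x y : Fin 4}, Mark X x y Q → Mark X x y (Q + 6 * (m : ℝ)) := by
    intro x y hh
    refine ⟨(perZ m _ _).mpr hh.mem_a, (perZ m _ _).mpr hh.mem_b,
      fun l hl => hh.only l ((perZ m _ _).mp hl), ?_, ?_⟩
    · have h1 := tendsto_add_left (Q + 6 * (m : ℝ)) (-(6 * (m : ℝ)))
      have e : Q + 6 * (m : ℝ) + -(6 * (m : ℝ)) = Q := by ring
      rw [e] at h1
      filter_upwards [h1.eventually hh.left] with v hv hv'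
      refine hv ((perZ m _ _).mp ?_)
      have e2 : v + -(6 * (m : ℝ)) + 6 * (m : ℝ) = v := by ring
      rw [e2]; exact hv'
    · have h1 := tendsto_add_right (Q + 6 * (m : ℝ)) (-(6 * (m : ℝ)))
      have e : Q + 6 * (m : ℝ) + -(6 * (m : ℝ)) = Q := by ring
      rw [e] at h1
      filter_upwards [h1.eventually hh.right] with v hv hv'
      refine hv ((perZ m _ _).mp ?_)
      have e2 : v + -(6 * (m : ℝ)) + 6 * (m : ℝ) = v := by ring
      rw [e2]; exact hv'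
  have hQ2 : QMark X (Q + 6 * (m : ℝ)) := hQ.imp hmark hmark
  set T := Q + 6 * (m : ℝ) with hT
  have hf0 : 0 ≤ ⌊T - V⌋ := Int.floor_nonneg.mpr (by linarith)
  have hf6 : ⌊T - V⌋ < 6 := by
    rw [Int.floor_lt]; push_cast; linarith
  have e : ((⌊T - V⌋.toNat : ℕ) : ℝ) = (⌊T - V⌋ : ℝ) := by
    have : ((⌊T - V⌋.toNat : ℤ)) = ⌊T - V⌋ := Int.toNat_of_nonneg hf0
    exact_mod_cast congrArg (Int.cast : ℤ → ℝ) this
  have hTe : V + Int.fract (T - V) + (((⟨⌊T - V⌋.toNat, by omega⟩ : Fin 6).val : ℕ) : ℝ) = T := by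
    show V + Int.fract (T - V) + ((⌊T - V⌋.toNat : ℕ) : ℝ) = T
    rw [e]
    have := Int.floor_add_fract (T - V)
    linarith
  refine Words.L2 R.word R.ac hV hVu (k := ⟨⌊T - V⌋.toNat, by omega⟩)
    (Int.fract_nonneg (T - V)) (Int.fract_lt_one (T - V)) ?_ ?_
  · rw [hTe]; exact hQ2
  · intro u a b
    obtain ⟨n, hn⟩ := hQu u a b
    refine ⟨n - m, ?_⟩
    rw [hTe, hT, hn]
    push_cast; ring

/-- **L3**: exactly one end `V` of type `e|A`, exactly two ends `Q < Q'` of type `f|C` in the window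
`(V, V + 6)`: the centre is in the open triangle of the three ends. -/
theorem Raw.L3 (R : Raw X) {V Q Q' : ℝ} (hV : End X 0 2 V)
    (hVu : ∀ u, u ∈ X 0 → u ∈ X 2 → ∃ n : ℤ, u = V + 6 * n)
    (hQ : End X 1 3 Q) (hQ' : End X 1 3 Q') (h1 : V < Q) (h2 : Q < Q') (h3 : Q' < V + 6)
    (hQu : ∀ u, u ∈ X 1 → u ∈ X 3 → ∃ n : ℤ, u = Q + 6 * n ∨ u = Q' + 6 * n) :
    Q < V + 3 ∧ V + 3 < Q' ∧ Q' < Q + 3 :=
  Words.L3 R.word R.ac R.anti hV hVu hQ hQ' h1 h2 h3 hQu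

end Vale.Agent.P032.Words
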