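import Vale.Agent.P032.Words.Jump

/-!
# Words on a circle with exact contacts: the engine

As in `Engine`, but two neighbouring palettes (at distance one) may have a common letter.  Only
selections which are legal are compared.  `lam` is a legal choice of a letter at every point such that
it also stays legal if the letters at marks are changed inside the palette of the mark.
-/

namespace Vale.Agent.P032.Words

open Set Filter Topology

variable {Λ : Type}

/-- A word with exact contacts; `Mk a b`: the pair `a, b` may be the palette of a mark. -/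
structure TW (X : Λ → Set ℝ) (Leg : (Fin 6 → Λ) → Prop) (Mk : Λ → Λ → Prop) (lam : ℝ → Λ) :
    Prop where
  closed : ∀ l, IsClosed (X l)
  per : ∀ l u, u + 6 ∈ X l ↔ u ∈ X l
  mem : ∀ u, u ∈ X (lam u)
  lper : ∀ u, lam (u + 6) = lam u
  conn : ∀ u, ∀ h h' : Fin 6 → Λ, (∀ k, u + (k.val : ℝ) ∈ X (h k)) →
    (∀ k, u + (k.val : ℝ) ∈ X (h' k)) → Leg h → Leg h' → h ≠ h' →
    ∃ k, h k ≠ h' k ∧ Leg (Function.update h k (h' k))
  mks : ∀ u, ∀ h : Fin 6 → Λ, (∀ k, h k = lam (u + (k.val : ℝ)) ∨ ∃ a b, Mk a b ∧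
    u + (k.val : ℝ) ∈ X a ∧ u + (k.val : ℝ) ∈ X b ∧ (h k = a ∨ h k = b)) → Leg h

/-- The hexagon at `u`. -/
def sT (lam : ℝ → Λ) (u : ℝ) : Fin 6 → Λ := fun k => lam (u + (k.val : ℝ))

section
variable {X : Λ → Set ℝ} {Leg : (Fin 6 → Λ) → Prop} {Mk : Λ → Λ → Prop} {lam : ℝ → Λ}

theorem TW.leg_st (w : TW X Leg Mk lam) (u : ℝ) : Leg (sT lam u) := w.mks u _ fun _ => Or.inl rfl

theorem TW.st_mem (w : TW X Leg Mk lam) (u : ℝ) (k : Fin 6) : u + (k.val : ℝ) ∈ X (sT lam u k) :=
  w.mem _

theorem TW.lam_add (w : TW X Leg Mk lam) (u : ℝ) (k : Fin 6) :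
    lam (u + 1 + (k.val : ℝ)) = lam (u + ((k + 1).val : ℝ)) := by
  by_cases hk : k = 5
  · subst hk
    have h1 : ((5 : Fin 6) + 1).val = 0 := rfl
    have h2 : (5 : Fin 6).val = 5 := rfl
    rw [h1, h2]
    have : u + 1 + ((5 : ℕ) : ℝ) = (u + ((0 : ℕ) : ℝ)) + 6 := by push_cast; ring
    rw [this, w.lper]
  · have h1 : (k + 1).val = k.val + 1 := by
      have : k.val ≠ 5 := fun h => hk (Fin.ext h)
      have h6 := k.isLt
      rw [Fin.val_add_one_of_lt]
      rw [Fin.lt_def]
      show k.val < 5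
      omega
    rw [h1]
    congr 1
    push_cast
    ring

theorem TW.mem_add (w : TW X Leg Mk lam) (u : ℝ) (k : Fin 6) (l : Λ) :
    u + 1 + (k.val : ℝ) ∈ X l ↔ u + ((k + 1).val : ℝ) ∈ X l := by
  by_cases hk : k = 5
  · subst hk
    have h1 : ((5 : Fin 6) + 1).val = 0 := rfl
    have h2 : (5 : Fin 6).val = 5 := rfl
    rw [h1, h2]
    have : u + 1 + ((5 : ℕ) : ℝ) = (u + ((0 : ℕ) : ℝ)) + 6 := by push_cast; ring
    rw [this, w.per]
  · have h1 : (k + 1).val = k.val + 1 := by
      have : k.val ≠ 5 := fun h => hk (Fin.ext h)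
      have h6 := k.isLt
      rw [Fin.val_add_one_of_lt]
      rw [Fin.lt_def]
      show k.val < 5
      omega
    rw [h1]
    have : u + 1 + (k.val : ℝ) = u + ((k.val + 1 : ℕ) : ℝ) := by push_cast; ring
    rw [this]

theorem TW.st_add_one (w : TW X Leg Mk lam) (u : ℝ) : sT lam (u + 1) = rot (sT lam u) := by
  funext k
  exact w.lam_add u k

/-- Near `u` only letters available at `u` occur. -/
theorem TW.near [Finite Λ] (w : TW X Leg Mk lam) (u : ℝ) :
    ∀ᶠ v in 𝓝 u, ∀ k : Fin 6, ∀ l, v + (k.val : ℝ) ∈ X l → u + (k.val : ℝ) ∈ X l := by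
  rw [eventually_all]
  intro k
  rw [eventually_all]
  intro l
  by_cases h : u + (k.val : ℝ) ∈ X l
  · exact Eventually.of_forall fun v _ => h
  · have hc : Continuous fun v : ℝ => v + (k.val : ℝ) := by fun_prop
    have := (hc.tendsto u).eventually ((w.closed l).isOpen_compl.mem_nhds h)
    filter_upwards [this] with v hv hv'
    exact absurd hv' hv

variable {free : Λ → Λ → Prop} {cmp : (Fin 6 → Λ) → ℕ}

/-- Two legal selections from palettes with free pairs only have the same value of `cmp`. -/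
theorem TW.sel_eq (w : TW X Leg Mk lam)
    (hstep : ∀ h k l, Leg h → Leg (Function.update h k l) → free (h k) l →
      cmp (Function.update h k l) = cmp h)
    {u : ℝ} {P : Fin 6 → Set Λ} (hPX : ∀ k, ∀ l ∈ P k, u + (k.val : ℝ) ∈ X l)
    (hfree : ∀ k, ∀ a ∈ P k, ∀ b ∈ P k, free a b) {h' : Fin 6 → Λ} (hh' : ∀ k, h' k ∈ P k)
    (hl' : Leg h') : ∀ (n : ℕ) (h : Fin 6 → Λ), (∀ k, h k ∈ P k) → Leg h →
      (∃ D : Finset (Fin 6), D.card ≤ n ∧ ∀ k, h k ≠ h' k → k ∈ D) → cmp h = cmp h' := by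
  classical
  intro n
  induction n with
  | zero =>
    rintro h - - ⟨D, hD, hD2⟩
    have hD0 : D = ∅ := Finset.card_eq_zero.mp (Nat.le_zero.mp hD)
    have : h = h' := by
      funext k
      by_contra hk
      have := hD2 k hk
      rw [hD0] at this
      exact absurd this (Finset.notMem_empty k)
    rw [this]
  | succ n ih =>
    rintro h hh hl ⟨D, hD, hD2⟩
    by_cases he : h = h'
    · rw [he]
    obtain ⟨k, hk, hlk⟩ := w.conn u h h' (fun k => hPX k _ (hh k)) (fun k => hPX k _ (hh' k))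
      hl hl' he
    rw [← hstep h k (h' k) hl hlk (hfree k _ (hh k) _ (hh' k))]
    refine ih _ ?_ hlk ⟨D.erase k, ?_, ?_⟩
    · intro j
      by_cases hj : j = k
      · subst hj; rw [Function.update_self]; exact hh' j
      · rw [Function.update_of_ne hj]; exact hh j
    · have := Finset.card_erase_of_mem (hD2 k hk)
      have h1 : 0 < D.card := Finset.card_pos.mpr ⟨k, hD2 k hk⟩
      omega
    · intro j hj
      by_cases hjk : j = k
      · subst hjk; rw [Function.update_self] at hj; exact absurd rfl hj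
      · rw [Function.update_of_ne hjk] at hj
        exact Finset.mem_erase.mpr ⟨hjk, hD2 j hj⟩

theorem TW.sel_eq' (w : TW X Leg Mk lam)
    (hstep : ∀ h k l, Leg h → Leg (Function.update h k l) → free (h k) l →
      cmp (Function.update h k l) = cmp h)
    {u : ℝ} {P : Fin 6 → Set Λ} (hPX : ∀ k, ∀ l ∈ P k, u + (k.val : ℝ) ∈ X l)
    (hfree : ∀ k, ∀ a ∈ P k, ∀ b ∈ P k, free a b) {h h' : Fin 6 → Λ} (hh : ∀ k, h k ∈ P k)
    (hl : Leg h) (hh' : ∀ k, h' k ∈ P k) (hl' : Leg h') : cmp h = cmp h' :=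
  w.sel_eq hstep hPX hfree hh' hl' 6 h hh hl ⟨Finset.univ, by simp, fun k _ => Finset.mem_univ k⟩

/-- One sided or two sided local constancy of `cmp`. -/
theorem TW.ev (w : TW X Leg Mk lam)
    (hstep : ∀ h k l, Leg h → Leg (Function.update h k l) → free (h k) l →
      cmp (Function.update h k l) = cmp h)
    {u : ℝ} {F : Filter ℝ} {P : Fin 6 → Set Λ}
    (hPX : ∀ k, ∀ l ∈ P k, u + (k.val : ℝ) ∈ X l)
    (hPF : ∀ᶠ v in F, ∀ k, sT lam v k ∈ P k)
    (hfree : ∀ k, ∀ a ∈ P k, ∀ b ∈ P k, free a b)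
    {h : Fin 6 → Λ} (hh : ∀ k, h k ∈ P k) (hl : Leg h) : ∀ᶠ v in F, cmp (sT lam v) = cmp h := by
  filter_upwards [hPF] with v hv
  exact w.sel_eq' hstep hPX hfree hv (w.leg_st v) hh hl

/-- Local constancy at a point without non-free pairs. -/
theorem TW.ev_nhds [Finite Λ] (w : TW X Leg Mk lam)
    (hstep : ∀ h k l, Leg h → Leg (Function.update h k l) → free (h k) l →
      cmp (Function.update h k l) = cmp h)
    {u : ℝ} (hfree : ∀ k : Fin 6, ∀ a b, u + (k.val : ℝ) ∈ X a → u + (k.val : ℝ) ∈ X b → free a b) :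
    ∀ᶠ v in 𝓝 u, cmp (sT lam v) = cmp (sT lam u) := by
  refine w.ev (P := fun k => {l | u + (k.val : ℝ) ∈ X l}) hstep (fun k l hl => hl) ?_
    (fun k a ha b hb => hfree k a b ha hb) (fun k => w.st_mem u k) (w.leg_st u)
  filter_upwards [w.near u] with v hv k
  exact hv k _ (w.st_mem v k)

/-- Constancy on an open interval without non-free pairs. -/
theorem TW.const_Ioo [Finite Λ] (w : TW X Leg Mk lam)
    (hstep : ∀ h k l, Leg h → Leg (Function.update h k l) → free (h k) l →
      cmp (Function.update h k l) = cmp h)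
    {s : Set ℝ} (hs : IsPreconnected s)
    (hfree : ∀ u ∈ s, ∀ k : Fin 6, ∀ a b, u + (k.val : ℝ) ∈ X a → u + (k.val : ℝ) ∈ X b → free a b)
    {u v : ℝ} (hu : u ∈ s) (hv : v ∈ s) : cmp (sT lam u) = cmp (sT lam v) := by
  have hc : ContinuousOn (fun u => cmp (sT lam u)) s := by
    intro x hx
    have h1 := w.ev_nhds hstep (hfree x hx)
    have : Tendsto (fun u => cmp (sT lam u)) (𝓝 x) (pure (cmp (sT lam x))) := by
      rw [tendsto_pure]; exact h1
    exact (this.mono_left nhdsWithin_le_nhds).mono_right (pure_le_nhds _)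
  exact hs.constant hc hu hv

/-- The value of `cmp` at the two ends of an open interval without non-free pairs. -/
theorem TW.seg [Finite Λ] (w : TW X Leg Mk lam)
    (hstep : ∀ h k l, Leg h → Leg (Function.update h k l) → free (h k) l →
      cmp (Function.update h k l) = cmp h)
    {a b : ℝ} (hab : a < b)
    (hfree : ∀ u ∈ Ioo a b, ∀ k : Fin 6, ∀ x y, u + (k.val : ℝ) ∈ X x → u + (k.val : ℝ) ∈ X y →
      free x y)
    {p q : ℕ} (hp : ∀ᶠ v in 𝓝[>] a, cmp (sT lam v) = p)
    (hq : ∀ᶠ v in 𝓝[<] b, cmp (sT lam v) = q) : p = q := by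
  have h1 : ∀ᶠ v in 𝓝[>] a, v ∈ Ioo a b := Ioo_mem_nhdsGT hab
  have h2 : ∀ᶠ v in 𝓝[<] b, v ∈ Ioo a b := Ioo_mem_nhdsLT hab
  obtain ⟨x, hx1, hx2⟩ := (hp.and h1).exists
  obtain ⟨y, hy1, hy2⟩ := (hq.and h2).exists
  rw [← hx1, ← hy1]
  exact w.const_Ioo hstep isPreconnected_Ioo hfree hx2 hy2

/-- The values of `cmp` on the two sides of a point with marks. -/
theorem TW.jump [Finite Λ] (w : TW X Leg Mk lam)
    (hstep : ∀ h k l, Leg h → Leg (Function.update h k l) → free (h k) l →
      cmp (Function.update h k l) = cmp h)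
    (hrefl : ∀ x, free x x)
    {u : ℝ} (M : Finset (Fin 6)) (a b : Fin 6 → Λ)
    (hM : ∀ k ∈ M, Mark X (a k) (b k) (u + (k.val : ℝ)))
    (hMk : ∀ k ∈ M, Mk (a k) (b k))
    (hN : ∀ k ∉ M, ∀ x y, u + (k.val : ℝ) ∈ X x → u + (k.val : ℝ) ∈ X y → free x y) :
    ∃ h : Finset (Fin 6) → (Fin 6 → Λ), (∀ S, Leg (h S)) ∧
      (∀ S, ∀ k ∈ M, k ∉ S → h S k = a k ∧ h (insert k S) = Function.update (h S) k (b k)) ∧
      (∀ᶠ v in 𝓝[<] u, cmp (sT lam v) = cmp (h ∅)) ∧
      (∀ᶠ v in 𝓝[>] u, cmp (sT lam v) = cmp (h M)) ∧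
      (∀ᶠ v in 𝓝[<] (u + 1), cmp (sT lam v) = cmp (rot (h ∅))) := by
  classical
  set h : Finset (Fin 6) → (Fin 6 → Λ) := fun S k =>
    if k ∈ M then (if k ∈ S then b k else a k) else sT lam u k with hh
  have hleg : ∀ S, Leg (h S) := by
    intro S
    refine w.mks u _ fun k => ?_
    simp only [hh]
    split_ifs with h1 h2
    · exact Or.inr ⟨a k, b k, hMk k h1, (hM k h1).mem_a, (hM k h1).mem_b, Or.inr rfl⟩
    · exact Or.inr ⟨a k, b k, hMk k h1, (hM k h1).mem_a, (hM k h1).mem_b, Or.inl rfl⟩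
    · exact Or.inl rfl
  have hlegr : Leg (rot (h ∅)) := by
    refine w.mks (u + 1) _ fun k => ?_
    have e1 : rot (h ∅) k = h ∅ (k + 1) := rfl
    rw [e1]
    by_cases h1 : k + 1 ∈ M
    · have e2 : h ∅ (k + 1) = a (k + 1) := by
        simp only [hh]
        rw [if_pos h1, if_neg (Finset.notMem_empty _)]
      rw [e2]
      exact Or.inr ⟨a (k + 1), b (k + 1), hMk _ h1, (w.mem_add u k _).2 (hM _ h1).mem_a,
        (w.mem_add u k _).2 (hM _ h1).mem_b, Or.inl rfl⟩
    · have e2 : h ∅ (k + 1) = lam (u + ((k + 1).val : ℝ)) := by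
        simp only [hh]
        rw [if_neg h1]
        rfl
      rw [e2]
      exact Or.inl (w.lam_add u k).symm
  -- left and right palettes
  set Pm : Fin 6 → Set Λ := fun k => if k ∈ M then {a k} else {l | u + (k.val : ℝ) ∈ X l} with hPm
  set Pp : Fin 6 → Set Λ := fun k => if k ∈ M then {b k} else {l | u + (k.val : ℝ) ∈ X l} with hPp
  have hPmX : ∀ k, ∀ l ∈ Pm k, u + (k.val : ℝ) ∈ X l := by
    intro k l hl
    simp only [hPm] at hl
    split_ifs at hl with h1
    · rw [mem_singleton_iff] at hl; rw [hl]; exact (hM k h1).mem_a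
    · exact hl
  have hPpX : ∀ k, ∀ l ∈ Pp k, u + (k.val : ℝ) ∈ X l := by
    intro k l hl
    simp only [hPp] at hl
    split_ifs at hl with h1
    · rw [mem_singleton_iff] at hl; rw [hl]; exact (hM k h1).mem_b
    · exact hl
  have hPmf : ∀ k, ∀ x ∈ Pm k, ∀ y ∈ Pm k, free x y := by
    intro k x hx y hy
    simp only [hPm] at hx hy
    split_ifs at hx hy with h1
    · rw [mem_singleton_iff] at hx hy; rw [hx, hy]; exact hrefl _
    · exact hN k h1 x y hx hy
  have hPpf : ∀ k, ∀ x ∈ Pp k, ∀ y ∈ Pp k, free x y := by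
    intro k x hx y hy
    simp only [hPp] at hx hy
    split_ifs at hx hy with h1
    · rw [mem_singleton_iff] at hx hy; rw [hx, hy]; exact hrefl _
    · exact hN k h1 x y hx hy
  have hleft : ∀ᶠ v in 𝓝[<] u, ∀ k, sT lam v k ∈ Pm k := by
    rw [eventually_all]
    intro k
    have h0 := (w.near u).filter_mono (nhdsWithin_le_nhds (s := Iio u))
    by_cases h1 : k ∈ M
    · have h2 := (tendsto_add_left u (k.val : ℝ)).eventually (hM k h1).left
      filter_upwards [h0, h2] with v hv hv2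
      simp only [hPm, if_pos h1, mem_singleton_iff]
      rcases (hM k h1).only _ (hv k _ (w.st_mem v k)) with h3 | h3
      · exact h3
      · exact absurd (h3 ▸ w.st_mem v k) hv2
    · filter_upwards [h0] with v hv
      simp only [hPm, if_neg h1]
      exact hv k _ (w.st_mem v k)
  have hright : ∀ᶠ v in 𝓝[>] u, ∀ k, sT lam v k ∈ Pp k := by
    rw [eventually_all]
    intro k
    have h0 := (w.near u).filter_mono (nhdsWithin_le_nhds (s := Ioi u))
    by_cases h1 : k ∈ M
    · have h2 := (tendsto_add_right u (k.val : ℝ)).eventually (hM k h1).right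
      filter_upwards [h0, h2] with v hv hv2
      simp only [hPp, if_pos h1, mem_singleton_iff]
      rcases (hM k h1).only _ (hv k _ (w.st_mem v k)) with h3 | h3
      · exact absurd (h3 ▸ w.st_mem v k) hv2
      · exact h3
    · filter_upwards [h0] with v hv
      simp only [hPp, if_neg h1]
      exact hv k _ (w.st_mem v k)
  have hm0 : ∀ k, h ∅ k ∈ Pm k := by
    intro k
    simp only [hh, hPm]
    split_ifs with h1 h2
    · exact absurd h2 (Finset.notMem_empty k)
    · exact mem_singleton _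
    · exact w.st_mem u k
  refine ⟨h, hleg, ?_, ?_, ?_, ?_⟩
  · intro S k hk hkS
    refine ⟨by simp only [hh]; rw [if_pos hk, if_neg hkS], ?_⟩
    funext j
    by_cases hj : j = k
    · subst hj
      rw [Function.update_self]
      simp only [hh]
      rw [if_pos hk, if_pos (Finset.mem_insert_self j S)]
    · rw [Function.update_of_ne hj]
      simp only [hh]
      by_cases hjM : j ∈ M
      · rw [if_pos hjM, if_pos hjM]
        by_cases hjS : j ∈ S
        · rw [if_pos hjS, if_pos (Finset.mem_insert_of_mem hjS)]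
        · rw [if_neg hjS, if_neg]
          rw [Finset.mem_insert]
          exact not_or.mpr ⟨hj, hjS⟩
      · rw [if_neg hjM, if_neg hjM]
  · exact w.ev hstep hPmX hleft hPmf hm0 (hleg ∅)
  · refine w.ev hstep hPpX hright hPpf ?_ (hleg M)
    intro k
    simp only [hh, hPp]
    split_ifs with h1
    · exact mem_singleton _
    · exact w.st_mem u k
  · have h1 : ∀ᶠ v in 𝓝[<] (u + 1), ∀ k, sT lam (v - 1) k ∈ Pm k := by
      have := tendsto_add_left (u + 1) (-1)
      have e : u + 1 + -1 = u := by ring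
      rw [e] at this
      have h2 := this.eventually hleft
      filter_upwards [h2] with v hv
      exact hv
    filter_upwards [h1] with v hv
    have e : sT lam v = rot (sT lam (v - 1)) := by
      rw [← w.st_add_one]; congr 1; ring
    refine w.sel_eq' (u := u + 1) (P := fun k => Pm (k + 1)) hstep ?_ ?_ ?_ (w.leg_st v) ?_ hlegr
    · intro k l hl
      rw [w.mem_add]
      exact hPmX _ _ hl
    · intro k
      exact hPmf (k + 1)
    · intro k
      rw [e]
      exact hv (k + 1)
    · intro k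
      exact hm0 (k + 1)

end

end Vale.Agent.P032.Words
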